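import Vale.Agent.P335.Defs
import Vale.Agent.P335.Mix

/-! The switch chain on simple graphs mixes in at most `n ^ 6` steps for every degree sequence. -/

open Vale.Agent.P335 in
theorem Vale.Agent.Results.P335.SwitchChainPolyMixing.result {n : ℕ} (hn : 4 ≤ n)
    (d : Fin n → ℕ) :
    (∀ t : ℕ, n ^ 6 ≤ t → ∀ G₀ ∈ Omega d, tvToUniform d G₀ t ≤ 1 / 4) ∧ tmix d ≤ n ^ 6 :=
  ⟨fun _ ht _ hG₀ => tv_bound hn ht hG₀, tmix_bound hn d⟩
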